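import Mathlib

/-! Definitions for P076: Fourier transform in the normalisation of the problem, Sobolev spaces,
the Gaussian-regularised Schroedinger evolution and pointwise convergence.  Everything is written
for a finite dimensional real inner product space `E` with its Lebesgue measure `volume`
(for the problem: `E = EuclideanSpace ℝ (Fin n)`, that is `ℝⁿ`, and `Module.finrank ℝ E = n`). -/

open MeasureTheory Real Complex FourierTransform Filter Topology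

namespace Vale.Agent.Lib.P076

variable {E : Type*} [NormedAddCommGroup E] [InnerProductSpace ℝ E] [FiniteDimensional ℝ E]
  [MeasurableSpace E] [BorelSpace E]

/-- The Fourier transform `f̂(ξ) = ∫ e^{-i x·ξ} f(x) dx` of `f ∈ L²(E)`.  Mathlib's `L²` Fourier
transform `𝓕` extends `φ ↦ ∫ e^{-2π i x·η} φ(x) dx`, hence `f̂(ξ) = (𝓕 f)(ξ / 2π)`. -/
noncomputable def hat (f : Lp ℂ 2 (volume : Measure E)) (ξ : E) : ℂ :=
  (𝓕 f : Lp ℂ 2 (volume : Measure E)) ((2 * π)⁻¹ • ξ)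

/-- `f ∈ H^s(E)`: the integral `∫ (1+|ξ|²)^s |f̂(ξ)|² dξ` is finite. -/
def MemHs (s : ℝ) (f : Lp ℂ 2 (volume : Measure E)) : Prop :=
  Integrable (fun ξ : E => (1 + ‖ξ‖ ^ 2) ^ s * ‖hat f ξ‖ ^ 2)

/-- The regularised evolution
`(2π)^{-n} ∫ e^{i x·ξ - i t |ξ|² - a |ξ|²} f̂(ξ) dξ`, `n = dim E`. -/
noncomputable def schrodReg (f : Lp ℂ 2 (volume : Measure E)) (t a : ℝ) (x : E) : ℂ :=
  (((2 * π) ^ (Module.finrank ℝ E) : ℝ) : ℂ)⁻¹ * ∫ ξ : E,
    cexp (I * ((inner ℝ x ξ : ℝ) : ℂ) - I * (t : ℂ) * ((‖ξ‖ ^ 2 : ℝ) : ℂ)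
      - (a : ℂ) * ((‖ξ‖ ^ 2 : ℝ) : ℂ)) * hat f ξ

/-- Convergence at `x` in the sense of the problem: for all sufficiently small `t > 0` the value
`e^{itΔ}f(x) = lim_{a ↓ 0} schrodReg f t a x` exists (call it `u t`), and `u t → f x` as `t ↓ 0`
(`f x` is the value of the fixed representative of `f` chosen by Mathlib). -/
def ConvergesAt (f : Lp ℂ 2 (volume : Measure E)) (x : E) : Prop :=
  ∃ δ : ℝ, 0 < δ ∧ ∃ u : ℝ → ℂ,
    (∀ t ∈ Set.Ioo (0 : ℝ) δ, Tendsto (fun a : ℝ => schrodReg f t a x) (𝓝[>] 0) (𝓝 (u t))) ∧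
    Tendsto u (𝓝[>] 0) (𝓝 (f x))

end Vale.Agent.Lib.P076
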