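import Mathlib

/-! Compatibility of the `L²` (inverse) Fourier transform with the integral formula on `L¹ ∩ L²`. -/

open MeasureTheory Real Complex FourierTransform SchwartzMap TemperedDistribution
open scoped ENNReal ContDiff

namespace Vale.Agent.Lib.P076

variable {E : Type*} [NormedAddCommGroup E] [InnerProductSpace ℝ E] [FiniteDimensional ℝ E]
  [MeasurableSpace E] [BorelSpace E]

theorem continuous_fourierInv_of_integrable (h : E → ℂ) (h1 : Integrable h) :
    Continuous (𝓕⁻ h) := by
  have := VectorFourier.fourierIntegral_continuous (e := 𝐞) (μ := (volume : Measure E))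
    (L := -innerₗ E) (f := h) continuous_fourierChar (by
      have : Continuous fun p : E × E => -(inner ℝ p.1 p.2 : ℝ) := continuous_inner.neg
      simpa using this) h1
  exact this

theorem fourierInv_toLp_ae_eq (h : E → ℂ) (h1 : Integrable h) (h2 : MemLp h 2) :
    ((𝓕⁻ (h2.toLp h) : Lp ℂ 2 (volume : Measure E)) : E → ℂ) =ᵐ[volume] 𝓕⁻ h := by
  apply ae_eq_of_integral_contDiff_smul_eq
  · exact (Lp.memLp _).locallyIntegrable (by norm_num)
  · exact (continuous_fourierInv_of_integrable h h1).locallyIntegrable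
  · intro g g_smooth g_cpt
    have hg₁ : HasCompactSupport (Complex.ofRealCLM ∘ g) := g_cpt.comp_left rfl
    have hg₂ : ContDiff ℝ ∞ (Complex.ofRealCLM ∘ g) := by fun_prop
    set φ : 𝓢(E, ℂ) := hg₁.toSchwartzMap hg₂ with hφ
    have e1 : ∫ x, g x • ((𝓕⁻ (h2.toLp h) : Lp ℂ 2 (volume : Measure E)) : E → ℂ) x
        = (Lp.toTemperedDistribution (𝓕⁻ (h2.toLp h) : Lp ℂ 2 (volume : Measure E))) φ := by
      rw [Lp.toTemperedDistribution_apply]
      simp [hφ]
    rw [e1, ← Lp.fourierInv_toTemperedDistribution_eq, TemperedDistribution.fourierInv_apply,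
      Lp.toTemperedDistribution_apply]
    have e2 : ∫ x, (𝓕⁻ φ) x • ((h2.toLp h : Lp ℂ 2 (volume : Measure E)) : E → ℂ) x
        = ∫ x, (𝓕⁻ (φ : E → ℂ)) x • h x := by
      apply integral_congr_ae
      filter_upwards [h2.coeFn_toLp] with x hx
      rw [hx, SchwartzMap.fourierInv_coe]
    rw [e2]
    have e3 := VectorFourier.integral_fourierIntegral_smul_eq_flip (e := 𝐞)
      (μ := (volume : Measure E)) (ν := (volume : Measure E))
      (L := -innerₗ E) (f := (φ : E → ℂ)) (g := h) continuous_fourierChar (by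
      have : Continuous fun p : E × E => -(inner ℝ p.1 p.2 : ℝ) := continuous_inner.neg
      simpa using this) φ.integrable h1
    have e4 : ∀ x, VectorFourier.fourierIntegral 𝐞 volume (-innerₗ E).flip h x = 𝓕⁻ h x := by
      intro x
      rw [Real.fourierInv_eq]
      simp [VectorFourier.fourierIntegral, real_inner_comm]
    simp only [e4] at e3
    have e5 : ∀ x, (φ : E → ℂ) x • 𝓕⁻ h x = g x • 𝓕⁻ h x := by
      intro x
      simp [hφ]
    simp only [e5] at e3
    rw [← e3]
    rfl

end Vale.Agent.Lib.P076
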