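import Mathlib
import Vale.Agent.Lib.P076.L2Fourier

/-! Unit energy windows and the `ℓ¹(L²)` maximal bound. -/

open MeasureTheory Real Complex FourierTransform Filter Topology Set
open scoped ENNReal

set_option linter.unusedSectionVars false

namespace Vale.Agent.Lib.P076

variable {E : Type*} [NormedAddCommGroup E] [InnerProductSpace ℝ E] [FiniteDimensional ℝ E]
  [MeasurableSpace E] [BorelSpace E]

/-- the energy `|2 π η|²` -/
noncomputable def qen (η : E) : ℝ := 4 * π ^ 2 * ‖η‖ ^ 2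

lemma continuous_qen : Continuous (qen : E → ℝ) := by
  unfold qen; fun_prop

lemma qen_nonneg (η : E) : 0 ≤ qen η := by
  unfold qen; positivity

/-- unit energy window -/
def win (j : ℕ) : Set E := {η | (j : ℝ) ≤ qen η ∧ qen η < j + 1}

lemma measurableSet_win (j : ℕ) : MeasurableSet (win j : Set E) := by
  have h1 : MeasurableSet {η : E | (j : ℝ) ≤ qen η} :=
    measurableSet_le measurable_const continuous_qen.measurable
  have h2 : MeasurableSet {η : E | qen η < j + 1} :=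
    measurableSet_lt continuous_qen.measurable measurable_const
  exact h1.inter h2

lemma mem_win_iff (j : ℕ) (η : E) : η ∈ win j ↔ ⌊qen η⌋₊ = j := by
  rw [Nat.floor_eq_iff (qen_nonneg η)]
  rfl

lemma win_subset_ball (j : ℕ) : (win j : Set E) ⊆ Metric.closedBall 0 (j + 1) := by
  intro η hη
  have h2 : qen η < j + 1 := hη.2
  rw [mem_closedBall_zero_iff]
  unfold qen at h2
  have hpi : (1 : ℝ) ≤ 4 * π ^ 2 := by nlinarith [Real.pi_gt_three]
  have h3 : ‖η‖ ^ 2 < j + 1 := by nlinarith [sq_nonneg ‖η‖]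
  have hj : (0 : ℝ) ≤ j := Nat.cast_nonneg j
  nlinarith [norm_nonneg η]

lemma volume_win_lt_top (j : ℕ) : volume (win j : Set E) < ∞ :=
  lt_of_le_of_lt (measure_mono (win_subset_ball j)) measure_closedBall_lt_top

lemma pairwise_disjoint_win : Pairwise (Function.onFun Disjoint (win : ℕ → Set E)) := by
  intro i j hij
  rw [Function.onFun, Set.disjoint_left]
  intro η hi hj
  rw [mem_win_iff] at hi hj
  exact hij (hi.symm.trans hj)

lemma iUnion_win : (⋃ j, (win j : Set E)) = univ := by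
  ext η
  simp only [mem_iUnion, mem_univ, iff_true]
  exact ⟨⌊qen η⌋₊, (mem_win_iff _ _).2 rfl⟩

/-- the pieces `(q - j)^m 1_{win j} G` -/
noncomputable def piece (G : E → ℂ) (j m : ℕ) : E → ℂ :=
  fun η => (((qen η - j : ℝ) : ℂ)) ^ m * (win j).indicator G η

lemma norm_piece_le (G : E → ℂ) (j m : ℕ) (η : E) :
    ‖piece G j m η‖ ≤ ‖(win j).indicator G η‖ := by
  unfold piece
  by_cases h : η ∈ win j
  · rw [norm_mul, norm_pow, Complex.norm_real]
    have h1 : ‖qen η - j‖ ≤ 1 := by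
      rw [Real.norm_eq_abs, abs_le]
      constructor <;> linarith [h.1, h.2]
    calc ‖qen η - j‖ ^ m * ‖(win j).indicator G η‖ ≤ 1 * ‖(win j).indicator G η‖ := by
          gcongr
          exact pow_le_one₀ (norm_nonneg _) h1
      _ = _ := one_mul _
  · simp [Set.indicator_of_notMem h]

lemma aestronglyMeasurable_piece {G : E → ℂ} (hG : AEStronglyMeasurable G volume) (j m : ℕ) :
    AEStronglyMeasurable (piece G j m) volume := by
  unfold piece
  apply AEStronglyMeasurable.mul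
  · apply Continuous.aestronglyMeasurable
    have := continuous_qen (E := E)
    fun_prop
  · exact hG.indicator (measurableSet_win j)

lemma memLp_piece {G : E → ℂ} (hG : MemLp G 2) (j m : ℕ) : MemLp (piece G j m) 2 :=
  (hG.indicator (measurableSet_win j)).mono (aestronglyMeasurable_piece hG.1 j m)
    (Eventually.of_forall (norm_piece_le G j m))

lemma integrable_indicator_win {G : E → ℂ} (hG : MemLp G 2) (j : ℕ) :
    Integrable ((win j).indicator G) := by
  apply IntegrableOn.integrable_indicator _ (measurableSet_win j)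
  have : IsFiniteMeasure (volume.restrict (win j : Set E)) := ⟨by
    rw [Measure.restrict_apply_univ]; exact volume_win_lt_top j⟩
  exact (hG.restrict (win j)).integrable (by norm_num)

lemma integrable_piece {G : E → ℂ} (hG : MemLp G 2) (j m : ℕ) : Integrable (piece G j m) :=
  (integrable_indicator_win hG j).mono (aestronglyMeasurable_piece hG.1 j m)
    (Eventually.of_forall (norm_piece_le G j m))

lemma eLpNorm_piece_le (G : E → ℂ) (j m : ℕ) :
    eLpNorm (piece G j m) 2 volume ≤ eLpNorm ((win j).indicator G) 2 volume :=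
  eLpNorm_mono (norm_piece_le G j m)

/-- Plancherel for the integral inverse Fourier transform on `L¹ ∩ L²`. -/
lemma eLpNorm_fourierInv_eq (h : E → ℂ) (h1 : Integrable h) (h2 : MemLp h 2) :
    eLpNorm (𝓕⁻ h) 2 volume = eLpNorm h 2 volume := by
  rw [← eLpNorm_congr_ae (fourierInv_toLp_ae_eq h h1 h2), ← Lp.enorm_def]
  have : ‖(𝓕⁻ (h2.toLp h) : Lp ℂ 2 (volume : Measure E))‖ₑ = ‖h2.toLp h‖ₑ := by
    have := (Lp.fourierTransformₗᵢ E ℂ).symm.norm_map (h2.toLp h)
    rw [enorm_eq_iff_norm_eq]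
    exact this
  rw [this, Lp.enorm_def]
  exact eLpNorm_congr_ae h2.coeFn_toLp


/-- inverse Fourier integrals of the pieces -/
noncomputable def wpc (G : E → ℂ) (j m : ℕ) : E → ℂ := 𝓕⁻ (piece G j m)

lemma continuous_wpc {G : E → ℂ} (hG : MemLp G 2) (j m : ℕ) : Continuous (wpc G j m) :=
  continuous_fourierInv_of_integrable _ (integrable_piece hG j m)

lemma eLpNorm_wpc_le {G : E → ℂ} (hG : MemLp G 2) (j m : ℕ) :
    eLpNorm (wpc G j m) 2 volume ≤ eLpNorm ((win j).indicator G) 2 volume := by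
  unfold wpc
  rw [eLpNorm_fourierInv_eq _ (integrable_piece hG j m) (memLp_piece hG j m)]
  exact eLpNorm_piece_le G j m

lemma tsum_enorm_two_pow_div_factorial_ne_top :
    ∑' m : ℕ, ‖((2 : ℂ) ^ m / (m.factorial : ℂ))‖ₑ ≠ ∞ := by
  rw [tsum_enorm_ne_top_iff_summable_norm]
  have := Real.summable_pow_div_factorial 2
  refine this.congr ?_
  intro m
  simp

/-- a.e. summability of the majorant series -/
lemma ae_summable_majorant {G : E → ℂ} (hG : MemLp G 2)
    (hsum : ∑' j : ℕ, eLpNorm ((win j).indicator G) 2 volume ≠ ∞) :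
    ∀ᵐ x : E, Summable (fun p : ℕ × ℕ =>
      ‖((2 : ℂ) ^ p.2 / (p.2.factorial : ℂ)) • wpc G p.1 p.2 x‖) := by
  have key := summable_norm_of_tsum_eLpNorm_ne_top (μ := (volume : Measure E)) (p := 2)
    (by norm_num) (f := fun p : ℕ × ℕ => ((2 : ℂ) ^ p.2 / (p.2.factorial : ℂ)) • wpc G p.1 p.2)
    (fun p => ((continuous_wpc hG p.1 p.2).aestronglyMeasurable).const_smul _) ?_
  · exact key
  · have h1 : ∑' p : ℕ × ℕ, eLpNorm (((2 : ℂ) ^ p.2 / (p.2.factorial : ℂ)) • wpc G p.1 p.2) 2 volume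
        ≤ ∑' p : ℕ × ℕ, (fun (j m : ℕ) => ‖((2 : ℂ) ^ m / (m.factorial : ℂ))‖ₑ *
            eLpNorm ((win j).indicator G) 2 volume) p.1 p.2 := by
      apply ENNReal.tsum_le_tsum
      intro p
      rw [eLpNorm_const_smul]
      exact mul_le_mul_right (eLpNorm_wpc_le hG p.1 p.2) _
    rw [ENNReal.tsum_prod (f := fun (j m : ℕ) => ‖((2 : ℂ) ^ m / (m.factorial : ℂ))‖ₑ *
            eLpNorm ((win j).indicator G) 2 volume)] at h1
    have h2 : ∑' (j : ℕ) (m : ℕ), ‖((2 : ℂ) ^ m / (m.factorial : ℂ))‖ₑ *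
            eLpNorm ((win j).indicator G) 2 volume
        = (∑' m : ℕ, ‖((2 : ℂ) ^ m / (m.factorial : ℂ))‖ₑ) *
          ∑' j : ℕ, eLpNorm ((win j).indicator G) 2 volume := by
      simp_rw [ENNReal.tsum_mul_right, ENNReal.tsum_mul_left]
    rw [h2] at h1
    exact ne_top_of_le_ne_top (ENNReal.mul_ne_top tsum_enorm_two_pow_div_factorial_ne_top hsum) h1

/-- the terms of the double series -/
noncomputable def trm (G : E → ℂ) (x : E) (p : ℕ × ℕ) (z : ℂ) : ℂ :=
  cexp (-z * p.1) * ((-z) ^ p.2 / (p.2.factorial : ℂ)) * wpc G p.1 p.2 x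

lemma norm_trm_le (G : E → ℂ) (x : E) (p : ℕ × ℕ) {z : ℂ} (hz : 0 ≤ z.re) (hz2 : ‖z‖ ≤ 2) :
    ‖trm G x p z‖ ≤ ‖((2 : ℂ) ^ p.2 / (p.2.factorial : ℂ)) • wpc G p.1 p.2 x‖ := by
  unfold trm
  rw [norm_smul, norm_mul, norm_mul]
  have h1 : ‖cexp (-z * p.1)‖ ≤ 1 := by
    rw [Complex.norm_exp]
    apply Real.exp_le_one_iff.2
    simp only [neg_mul, neg_re, mul_re, natCast_re, natCast_im, mul_zero, sub_zero, Left.neg_nonpos_iff]
    positivity
  have h2 : ‖(-z) ^ p.2 / (p.2.factorial : ℂ)‖ ≤ ‖(2 : ℂ) ^ p.2 / (p.2.factorial : ℂ)‖ := by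
    rw [norm_div, norm_div, norm_pow, norm_pow, norm_neg]
    gcongr
    simpa using hz2
  calc ‖cexp (-z * p.1)‖ * ‖(-z) ^ p.2 / (p.2.factorial : ℂ)‖ * ‖wpc G p.1 p.2 x‖
      ≤ 1 * ‖(2 : ℂ) ^ p.2 / (p.2.factorial : ℂ)‖ * ‖wpc G p.1 p.2 x‖ := by gcongr
    _ = _ := by rw [one_mul]

lemma continuous_trm (G : E → ℂ) (x : E) (p : ℕ × ℕ) : Continuous (trm G x p) := by
  unfold trm
  fun_prop


lemma integrable_e_smul {h : E → ℂ} (hh : Integrable h) (x : E) :
    Integrable (fun η => 𝐞 (inner ℝ η x) • h η) := by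
  have := (Real.fourierIntegral_convergent_iff (μ := (volume : Measure E)) (f := h) (-x)).2 hh
  simpa using this

lemma memLp_gauss {z : ℂ} (hz : 0 < z.re) :
    MemLp (fun η : E => cexp (-z * qen η)) 2 := by
  have hc : Continuous (fun η : E => cexp (-z * qen η)) := by
    have := continuous_qen (E := E)
    fun_prop
  rw [memLp_two_iff_integrable_sq_norm hc.aestronglyMeasurable]
  have hb : 0 < ((8 * π ^ 2 * z.re : ℝ) : ℂ).re := by
    rw [Complex.ofReal_re]; positivity
  have := (GaussianFourier.integrable_cexp_neg_mul_sq_norm_add (V := E) hb 0 0).norm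
  refine this.congr (Eventually.of_forall ?_)
  intro η
  have e1 : (-z * (qen η : ℂ)).re = -z.re * qen η := by simp
  have e2 : (-((8 * π ^ 2 * z.re : ℝ) : ℂ) * (‖η‖ : ℂ) ^ 2 + 0 * ((inner ℝ 0 η : ℝ) : ℂ)).re
      = -(8 * π ^ 2 * z.re) * ‖η‖ ^ 2 := by
    have : -((8 * π ^ 2 * z.re : ℝ) : ℂ) * (‖η‖ : ℂ) ^ 2 + 0 * ((inner ℝ 0 η : ℝ) : ℂ)
        = ((-(8 * π ^ 2 * z.re) * ‖η‖ ^ 2 : ℝ) : ℂ) := by push_cast; ring
    rw [this, Complex.ofReal_re]
  beta_reduce
  rw [Complex.norm_exp, Complex.norm_exp, e1, e2, ← Real.exp_nat_mul]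
  congr 1
  simp only [qen]
  push_cast
  ring

lemma integrable_gauss_mul {G : E → ℂ} (hG : MemLp G 2) {z : ℂ} (hz : 0 < z.re) :
    Integrable (fun η => cexp (-z * qen η) * G η) :=
  (memLp_gauss hz).integrable_mul hG

lemma hasSum_window {G : E → ℂ} (hG : MemLp G 2) (x : E) (z : ℂ) (j : ℕ) :
    HasSum (fun m => trm G x (j, m) z)
      (∫ η in win j, 𝐞 (inner ℝ η x) • (cexp (-z * qen η) * G η)) := by
  set F : ℕ → E → ℂ := fun m η =>
    𝐞 (inner ℝ η x) • ((cexp (-z * j) * ((-z) ^ m / (m.factorial : ℂ))) * piece G j m η) with hF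
  have hF_int : ∀ m, Integrable (F m) := fun m =>
    integrable_e_smul ((integrable_piece hG j m).const_mul _) x
  have hF_val : ∀ m, ∫ η, F m η = trm G x (j, m) z := by
    intro m
    simp only [hF, trm, wpc, Real.fourierInv_eq, Circle.smul_def, smul_eq_mul]
    rw [← integral_const_mul]
    congr 1
    ext η
    ring
  have hF_norm : ∀ m η, ‖F m η‖ ≤ ‖cexp (-z * j)‖ * (‖z‖ ^ m / m.factorial) *
      ‖(win j).indicator G η‖ := by
    intro m η
    simp only [hF, Circle.norm_smul, norm_mul, norm_div, norm_pow, norm_neg, Complex.norm_natCast]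
    gcongr
    exact norm_piece_le G j m η
  have hsum : Summable (fun m => ∫ η, ‖F m η‖) := by
    have hI := (integrable_indicator_win hG j).norm
    refine Summable.of_nonneg_of_le (fun m => integral_nonneg (fun η => norm_nonneg _))
      (fun m => ?_) (((Real.summable_pow_div_factorial ‖z‖).mul_left ‖cexp (-z * j)‖).mul_right
        (∫ η, ‖(win j).indicator G η‖))
    calc ∫ η, ‖F m η‖ ≤ ∫ η, ‖cexp (-z * j)‖ * (‖z‖ ^ m / m.factorial) *
          ‖(win j).indicator G η‖ :=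
          integral_mono (hF_int m).norm (hI.const_mul _) (hF_norm m)
      _ = _ := by rw [integral_const_mul]
  have key := hasSum_integral_of_summable_integral_norm hF_int hsum
  simp only [hF_val] at key
  have hfin : (∫ η in win j, 𝐞 (inner ℝ η x) • (cexp (-z * qen η) * G η))
      = ∫ a, ∑' i, F i a := ?_
  · rw [hfin]; exact key
  rw [← integral_indicator (measurableSet_win j)]
  congr 1
  ext η
  by_cases h : η ∈ win j
  · rw [Set.indicator_of_mem h]
    have hexp : HasSum (fun m : ℕ => (-z * ((qen η - j : ℝ) : ℂ)) ^ m / (m.factorial : ℂ))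
        (cexp (-z * ((qen η - j : ℝ) : ℂ))) := by
      rw [Complex.exp_eq_exp_ℂ]
      exact NormedSpace.expSeries_div_hasSum_exp _
    have h2 := hexp.mul_left (𝐞 (inner ℝ η x) • (cexp (-z * j) * G η))
    have h3 : (fun m => F m η) = fun m : ℕ => (𝐞 (inner ℝ η x) • (cexp (-z * j) * G η)) *
        ((-z * ((qen η - j : ℝ) : ℂ)) ^ m / (m.factorial : ℂ)) := by
      ext m
      simp only [hF, piece, Set.indicator_of_mem h, Circle.smul_def, smul_eq_mul, mul_pow]
      ring
    rw [h3, h2.tsum_eq]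
    simp only [Circle.smul_def, smul_eq_mul]
    have : cexp (-z * qen η) = cexp (-z * j) * cexp (-z * ((qen η - j : ℝ) : ℂ)) := by
      rw [← Complex.exp_add]
      congr 1
      push_cast
      ring
    rw [this]
    ring
  · rw [Set.indicator_of_notMem h]
    simp [hF, piece, Set.indicator_of_notMem h]


lemma integral_eq_tsum_trm {G : E → ℂ} (hG : MemLp G 2) (x : E) {z : ℂ} (hz : 0 < z.re)
    (hz2 : ‖z‖ ≤ 2)
    (hx : Summable (fun p : ℕ × ℕ => ‖((2 : ℂ) ^ p.2 / (p.2.factorial : ℂ)) • wpc G p.1 p.2 x‖)) :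
    ∫ η, 𝐞 (inner ℝ η x) • (cexp (-z * qen η) * G η) = ∑' p : ℕ × ℕ, trm G x p z := by
  have hs : Summable (fun p => trm G x p z) :=
    Summable.of_norm_bounded hx (fun p => norm_trm_le G x p hz.le hz2)
  rw [hs.tsum_prod]
  have hΦ : Integrable (fun η => 𝐞 (inner ℝ η x) • (cexp (-z * qen η) * G η)) :=
    integrable_e_smul (integrable_gauss_mul hG hz) x
  have h1 := hasSum_integral_iUnion (μ := (volume : Measure E))
    (f := fun η => 𝐞 (inner ℝ η x) • (cexp (-z * qen η) * G η))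
    measurableSet_win pairwise_disjoint_win (by rw [iUnion_win]; exact hΦ.integrableOn)
  rw [iUnion_win, setIntegral_univ] at h1
  rw [← h1.tsum_eq]
  congr 1
  ext j
  exact (hasSum_window hG x z j).tsum_eq.symm

lemma piece_zero (G : E → ℂ) (j : ℕ) : piece G j 0 = (win j).indicator G := by
  ext η
  simp [piece]

lemma tsum_indicator_win (G : E → ℂ) (η : E) : ∑' j : ℕ, (win j).indicator G η = G η := by
  rw [tsum_eq_single ⌊qen η⌋₊]
  · rw [Set.indicator_of_mem ((mem_win_iff _ _).2 rfl)]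
  · intro j hj
    rw [Set.indicator_of_notMem]
    intro h
    exact hj ((mem_win_iff _ _).1 h).symm

/-- `𝓕⁻ F` is a.e. the sum of the inverse Fourier integrals of the window pieces. -/
lemma ae_fourierInv_eq_tsum (F : Lp ℂ 2 (volume : Measure E))
    (hsum : ∑' j : ℕ, eLpNorm ((win j).indicator (F : E → ℂ)) 2 volume ≠ ∞) :
    ∀ᵐ x : E, (𝓕⁻ F : Lp ℂ 2 (volume : Measure E)) x = ∑' j : ℕ, wpc (F : E → ℂ) j 0 x := by
  set G : E → ℂ := (F : E → ℂ) with hGdef
  have hG : MemLp G 2 := Lp.memLp F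
  have hgm : ∀ j, MemLp ((win j).indicator G) 2 := fun j => hG.indicator (measurableSet_win j)
  set gL : ℕ → Lp ℂ 2 (volume : Measure E) := fun j => (hgm j).toLp _ with hgL
  have hnorm : ∀ j, ‖gL j‖ₑ = eLpNorm ((win j).indicator G) 2 volume := by
    intro j
    rw [Lp.enorm_def]
    exact eLpNorm_congr_ae (hgm j).coeFn_toLp
  have hgsum : ∑' j, ‖gL j‖ₑ ≠ ∞ := by
    simp_rw [hnorm]; exact hsum
  have hF : F = ∑' j, gL j := by
    apply Lp.ext
    have h1 := Lp.coeFn_tsum hgsum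
    have h2 : ∀ᵐ η : E, ∀ j, gL j η = (win j).indicator G η :=
      ae_all_iff.2 (fun j => (hgm j).coeFn_toLp)
    filter_upwards [h1, h2] with η h1 h2
    rw [h1]
    simp_rw [h2]
    exact (tsum_indicator_win G η).symm
  have hsm : Summable gL := Summable.of_enorm hgsum
  have hFi : (𝓕⁻ F : Lp ℂ 2 (volume : Measure E)) = ∑' j, (𝓕⁻ (gL j) : Lp ℂ 2 (volume : Measure E)) := by
    have := ((Lp.fourierTransformₗᵢ E ℂ).symm.toContinuousLinearEquiv :
      Lp ℂ 2 (volume : Measure E) →L[ℂ] Lp ℂ 2 (volume : Measure E)).map_tsum hsm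
    rw [← hF] at this
    exact this
  have hnorm2 : ∑' j, ‖(𝓕⁻ (gL j) : Lp ℂ 2 (volume : Measure E))‖ₑ ≠ ∞ := by
    have : ∀ j, ‖(𝓕⁻ (gL j) : Lp ℂ 2 (volume : Measure E))‖ₑ = ‖gL j‖ₑ := by
      intro j
      rw [enorm_eq_iff_norm_eq]
      exact (Lp.fourierTransformₗᵢ E ℂ).symm.norm_map (gL j)
    simp_rw [this]; exact hgsum
  have h3 := Lp.coeFn_tsum hnorm2
  have h4 : ∀ᵐ x : E, ∀ j, (𝓕⁻ (gL j) : Lp ℂ 2 (volume : Measure E)) x = wpc G j 0 x := by
    apply ae_all_iff.2
    intro j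
    have := fourierInv_toLp_ae_eq _ (integrable_indicator_win hG j) (hgm j)
    filter_upwards [this] with x hx
    rw [wpc, piece_zero]
    exact hx
  filter_upwards [h3, h4] with x h3 h4
  rw [hFi, h3]
  simp_rw [h4]


lemma trm_zero (G : E → ℂ) (x : E) (j m : ℕ) :
    trm G x (j, m) 0 = if m = 0 then wpc G j 0 x else 0 := by
  unfold trm
  by_cases h : m = 0
  · subst h; simp
  · simp [h]

/-- Core theorem in the `η` variables. -/
theorem core (F : Lp ℂ 2 (volume : Measure E))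
    (hsum : ∑' j : ℕ, eLpNorm ((win j).indicator (F : E → ℂ)) 2 volume ≠ ∞) :
    ∀ᵐ x : E, ∃ u : ℝ → ℂ,
      (∀ t ∈ Ioo (0 : ℝ) 1, Tendsto (fun a : ℝ =>
        ∫ η, 𝐞 (inner ℝ η x) • (cexp (-((a : ℂ) + t * I) * qen η) * F η)) (𝓝[>] 0) (𝓝 (u t))) ∧
      Tendsto u (𝓝[>] 0) (𝓝 ((𝓕⁻ F : Lp ℂ 2 (volume : Measure E)) x)) := by
  set G : E → ℂ := (F : E → ℂ) with hGdef
  have hG : MemLp G 2 := Lp.memLp F
  filter_upwards [ae_summable_majorant hG hsum, ae_fourierInv_eq_tsum F hsum] with x hx hx2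
  set Ω : Set ℂ := {z | 0 ≤ z.re ∧ ‖z‖ ≤ 2} with hΩ
  set Φ : ℂ → ℂ := fun z => ∑' p : ℕ × ℕ, trm G x p z with hΦ
  have hcont : ContinuousOn Φ Ω :=
    continuousOn_tsum (fun p => (continuous_trm G x p).continuousOn) hx
      (fun p z hz => norm_trm_le G x p hz.1 hz.2)
  refine ⟨fun t => Φ (t * I), ?_, ?_⟩
  · intro t ht
    have hmem : (t * I : ℂ) ∈ Ω := by
      refine ⟨by simp, ?_⟩
      rw [norm_mul, Complex.norm_I, mul_one, Complex.norm_real, Real.norm_eq_abs,
        abs_of_pos ht.1]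
      linarith [ht.2]
    have h1 : Tendsto (fun a : ℝ => (a : ℂ) + t * I) (𝓝[>] 0) (𝓝[Ω] (t * I)) := by
      apply tendsto_nhdsWithin_iff.2
      constructor
      · have : Continuous (fun a : ℝ => (a : ℂ) + t * I) := by fun_prop
        have h := (this.tendsto 0).mono_left (nhdsWithin_le_nhds (s := Ioi (0 : ℝ)))
        simpa using h
      · have : Ioo (0 : ℝ) 1 ∈ 𝓝[>] (0 : ℝ) := Ioo_mem_nhdsGT (by norm_num)
        filter_upwards [this] with a ha
        refine ⟨by simp [ha.1.le], ?_⟩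
        calc ‖(a : ℂ) + t * I‖ ≤ ‖(a : ℂ)‖ + ‖(t * I : ℂ)‖ := norm_add_le _ _
          _ = |a| + |t| := by simp
          _ ≤ 2 := by rw [abs_of_pos ha.1, abs_of_pos ht.1]; linarith [ha.2, ht.2]
    have h2 := (hcont _ hmem).tendsto.comp h1
    refine h2.congr' ?_
    have : Ioo (0 : ℝ) 1 ∈ 𝓝[>] (0 : ℝ) := Ioo_mem_nhdsGT (by norm_num)
    filter_upwards [this] with a ha
    have hz : 0 < ((a : ℂ) + t * I).re := by simp [ha.1]
    have hz2 : ‖(a : ℂ) + t * I‖ ≤ 2 := by
      calc ‖(a : ℂ) + t * I‖ ≤ ‖(a : ℂ)‖ + ‖(t * I : ℂ)‖ := norm_add_le _ _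
        _ = |a| + |t| := by simp
        _ ≤ 2 := by rw [abs_of_pos ha.1, abs_of_pos ht.1]; linarith [ha.2, ht.2]
    exact (integral_eq_tsum_trm hG x hz hz2 hx).symm
  · have hmem : (0 : ℂ) ∈ Ω := by simp [hΩ]
    have h1 : Tendsto (fun t : ℝ => (t : ℂ) * I) (𝓝[>] 0) (𝓝[Ω] 0) := by
      apply tendsto_nhdsWithin_iff.2
      constructor
      · have : Continuous (fun t : ℝ => (t : ℂ) * I) := by fun_prop
        have h := (this.tendsto 0).mono_left (nhdsWithin_le_nhds (s := Ioi (0 : ℝ)))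
        simpa using h
      · have : Ioo (0 : ℝ) 1 ∈ 𝓝[>] (0 : ℝ) := Ioo_mem_nhdsGT (by norm_num)
        filter_upwards [this] with t ht
        refine ⟨by simp, ?_⟩
        rw [norm_mul, Complex.norm_I, mul_one, Complex.norm_real, Real.norm_eq_abs,
          abs_of_pos ht.1]
        linarith [ht.2]
    have h2 := (hcont _ hmem).tendsto.comp h1
    have h3 : Φ 0 = (𝓕⁻ F : Lp ℂ 2 (volume : Measure E)) x := by
      rw [hx2]
      have hs : Summable (fun p => trm G x p 0) :=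
        Summable.of_norm_bounded hx (fun p => norm_trm_le G x p (by simp) (by simp))
      simp only [hΦ]
      rw [hs.tsum_prod]
      congr 1
      ext j
      rw [tsum_eq_single 0]
      · simp [trm_zero, hGdef]
      · intro m hm
        simp [trm_zero, hm]
    rw [h3] at h2
    exact h2

end Vale.Agent.Lib.P076
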