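import Mathlib
import Vale.Agent.Lib.P076.Defs
import Vale.Agent.Lib.P076.Windows

/-! Translation between the normalisation of the problem and Mathlib's normalisation. -/

open MeasureTheory Real Complex FourierTransform Filter Topology Set
open scoped ENNReal

namespace Vale.Agent.Lib.P076

variable {E : Type*} [NormedAddCommGroup E] [InnerProductSpace ℝ E] [FiniteDimensional ℝ E]
  [MeasurableSpace E] [BorelSpace E]

set_option linter.unusedSectionVars false

lemma two_pi_pos : (0 : ℝ) < 2 * π := by positivity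

lemma schrodReg_eq (f : Lp ℂ 2 (volume : Measure E)) (t a : ℝ) (x : E) :
    schrodReg f t a x = ∫ η : E, 𝐞 (inner ℝ η x) •
      (cexp (-((a : ℂ) + t * I) * qen η) * (𝓕 f : Lp ℂ 2 (volume : Measure E)) η) := by
  unfold schrodReg hat
  set H : E → ℂ := fun η => 𝐞 (inner ℝ η x) •
      (cexp (-((a : ℂ) + t * I) * qen η) * (𝓕 f : Lp ℂ 2 (volume : Measure E)) η) with hH
  have h1 : ∀ ξ : E, cexp (I * ((inner ℝ x ξ : ℝ) : ℂ) - I * (t : ℂ) * ((‖ξ‖ ^ 2 : ℝ) : ℂ)
      - (a : ℂ) * ((‖ξ‖ ^ 2 : ℝ) : ℂ)) * (𝓕 f : Lp ℂ 2 (volume : Measure E)) ((2 * π)⁻¹ • ξ) = H ((2 * π)⁻¹ • ξ) := by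
    intro ξ
    simp only [hH, Circle.smul_def, Real.fourierChar_apply, smul_eq_mul, ← mul_assoc,
      ← Complex.exp_add]
    congr 2
    have hn : ‖(2 * π)⁻¹ • ξ‖ = (2 * π)⁻¹ * ‖ξ‖ := by
      rw [norm_smul, Real.norm_eq_abs, abs_of_pos (inv_pos.2 two_pi_pos)]
    have hi : (inner ℝ ((2 * π)⁻¹ • ξ) x : ℝ) = (2 * π)⁻¹ * inner ℝ x ξ := by
      rw [inner_smul_left, real_inner_comm]; simp
    rw [qen, hn, hi]
    have hpi : (π : ℂ) ≠ 0 := by exact_mod_cast Real.pi_ne_zero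
    push_cast
    field_simp
    ring
  simp_rw [h1]
  rw [Measure.integral_comp_smul volume H (2 * π)⁻¹]
  set n := Module.finrank ℝ E with hn
  have h2 : |(((2 * π)⁻¹ : ℝ) ^ n)⁻¹| = (2 * π) ^ n := by
    rw [inv_pow, inv_inv, abs_of_pos (pow_pos two_pi_pos n)]
  rw [h2, Complex.real_smul, ← mul_assoc, inv_mul_cancel₀, one_mul]
  have : ((2 * π) ^ n : ℝ) ≠ 0 := (pow_pos two_pi_pos n).ne'
  exact_mod_cast this

/-- Convergence in the sense of the problem from the `ℓ¹(L²)` window condition. -/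
theorem ae_convergesAt_of_window (f : Lp ℂ 2 (volume : Measure E))
    (hsum : ∑' j : ℕ, eLpNorm ((win j).indicator ((𝓕 f : Lp ℂ 2 (volume : Measure E)) : E → ℂ)) 2 volume ≠ ∞) :
    ∀ᵐ x : E, ConvergesAt f x := by
  filter_upwards [core (𝓕 f : Lp ℂ 2 (volume : Measure E)) hsum] with x hx
  obtain ⟨u, hu1, hu2⟩ := hx
  refine ⟨1, one_pos, u, ?_, ?_⟩
  · intro t ht
    simp_rw [schrodReg_eq]
    exact hu1 t ht
  · rw [FourierTransform.fourierInv_fourier_eq] at hu2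
    exact hu2

end Vale.Agent.Lib.P076
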