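import Mathlib
import Vale.Agent.Lib.P076.Translate

/-! Sobolev data with sparse energy spectrum satisfy the window condition. -/

open MeasureTheory Real Complex FourierTransform Filter Topology Set
open scoped ENNReal

namespace Vale.Agent.Lib.P076

variable {E : Type*} [NormedAddCommGroup E] [InnerProductSpace ℝ E] [FiniteDimensional ℝ E]
  [MeasurableSpace E] [BorelSpace E]

set_option linter.unusedSectionVars false

lemma ennreal_le_inv_add (c w : ℝ≥0∞) (hw0 : w ≠ 0) (hwt : w ≠ ∞) : c ≤ w⁻¹ + w * c ^ 2 := by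
  by_cases h : c ≤ w⁻¹
  · exact le_add_right h
  · have h := (not_le.1 h).le
    have h1 : 1 ≤ w * c := by
      have : w * w⁻¹ ≤ w * c := by gcongr
      rwa [ENNReal.mul_inv_cancel hw0 hwt] at this
    calc c = 1 * c := (one_mul c).symm
      _ ≤ (w * c) * c := by gcongr
      _ = w * c ^ 2 := by ring
      _ ≤ w⁻¹ + w * c ^ 2 := le_add_self

lemma eLpNorm_two_sq (g : E → ℂ) :
    (eLpNorm g 2 volume) ^ 2 = ∫⁻ η, ‖g η‖ₑ ^ 2 := by
  have := eLpNorm_nnreal_pow_eq_lintegral (μ := (volume : Measure (E))) (f := g)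
    (p := 2) (by norm_num)
  simpa using this

lemma qen_smul (ξ : E) : qen ((2 * π)⁻¹ • ξ) = ‖ξ‖ ^ 2 := by
  have hn : ‖(2 * π)⁻¹ • ξ‖ = (2 * π)⁻¹ * ‖ξ‖ := by
    rw [norm_smul, Real.norm_eq_abs, abs_of_pos (inv_pos.2 two_pi_pos)]
  rw [qen, hn]
  field_simp
  ring

lemma ae_of_ae_smul {p : E → Prop} (h : ∀ᵐ ξ : E, p ((2 * π)⁻¹ • ξ)) : ∀ᵐ η : E, p η := by
  rw [ae_iff] at h ⊢
  have h1 : {η : E | ¬ p η} = (fun η : E => (2 * π) • η) ⁻¹' {ξ | ¬ p ((2 * π)⁻¹ • ξ)} := by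
    ext η
    simp only [mem_ofPred_eq, mem_preimage]
    rw [smul_smul, inv_mul_cancel₀ two_pi_pos.ne', one_smul]
  rw [h1, Measure.addHaar_preimage_smul volume two_pi_pos.ne', h, mul_zero]

theorem window_sum_of_sparse (s : ℝ) (hs : 0 < s) (f : Lp ℂ 2 (volume : Measure E)) (hf : MemHs s f) (Λ : Set ℕ)
    (hΛ : Summable (fun j : Λ => (1 + ((j : ℕ) : ℝ)) ^ (-s)))
    (hsupp : ∀ᵐ ξ : E, hat f ξ ≠ 0 → ∃ j ∈ Λ, (j : ℝ) ≤ ‖ξ‖ ^ 2 ∧ ‖ξ‖ ^ 2 < j + 1) :
    ∑' j : ℕ, eLpNorm ((win j).indicator ((𝓕 f : Lp ℂ 2 (volume : Measure E)) : E → ℂ)) 2 volume ≠ ∞ := by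
  set F : E → ℂ := ((𝓕 f : Lp ℂ 2 (volume : Measure E)) : E → ℂ) with hF
  have hFm : AEStronglyMeasurable F volume := Lp.aestronglyMeasurable _
  -- translate the hypotheses
  have hΨ : Integrable (fun η : E => (1 + qen η) ^ s * ‖F η‖ ^ 2) := by
    have := (integrable_comp_smul_iff volume (fun η : E => (1 + qen η) ^ s * ‖F η‖ ^ 2)
      (inv_pos.2 two_pi_pos).ne').1 (by
        simp only [qen_smul]
        exact hf)
    exact this
  have hs' : ∀ᵐ η : E, F η ≠ 0 → ∃ j ∈ Λ, η ∈ win j := by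
    apply ae_of_ae_smul
    filter_upwards [hsupp] with ξ hξ h0
    obtain ⟨j, hj, h1, h2⟩ := hξ h0
    exact ⟨j, hj, by rw [win, mem_ofPred_eq, qen_smul]; exact ⟨h1, h2⟩⟩
  set c : ℕ → ℝ≥0∞ := fun j => eLpNorm ((win j).indicator F) 2 volume with hc
  set w : ℕ → ℝ≥0∞ := fun j => ENNReal.ofReal ((1 + (j : ℝ)) ^ s) with hw
  have hwpos : ∀ j : ℕ, 0 < (1 + (j : ℝ)) ^ s := fun j => by positivity
  have hc0 : ∀ j, j ∉ Λ → c j = 0 := by
    intro j hj
    simp only [hc]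
    rw [eLpNorm_eq_zero_iff (hFm.indicator (measurableSet_win j)) (by norm_num)]
    filter_upwards [hs'] with η hη
    by_cases hmem : η ∈ win j
    · rw [Set.indicator_of_mem hmem]
      by_contra h0
      obtain ⟨i, hi, hi2⟩ := hη h0
      rw [mem_win_iff] at hi2 hmem
      exact hj (by rw [← hmem, hi2]; exact hi)
    · rw [Set.indicator_of_notMem hmem]; rfl
  have hbound : ∀ j, c j ≤ Λ.indicator (fun j : ℕ => ENNReal.ofReal ((1 + (j : ℝ)) ^ (-s))) j
      + w j * c j ^ 2 := by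
    intro j
    by_cases hj : j ∈ Λ
    · rw [Set.indicator_of_mem hj]
      have := ennreal_le_inv_add (c j) (w j) (by simp [hw, hwpos j]) (by simp [hw])
      have h2 : (w j)⁻¹ = ENNReal.ofReal ((1 + (j : ℝ)) ^ (-s)) := by
        simp only [hw]
        rw [← ENNReal.ofReal_inv_of_pos (hwpos j), Real.rpow_neg (by positivity)]
      rwa [h2] at this
    · rw [hc0 j hj]; exact zero_le
  have hsum1 : ∑' j, Λ.indicator (fun j : ℕ => ENNReal.ofReal ((1 + (j : ℝ)) ^ (-s))) j ≠ ∞ := by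
    have h1 : Summable (Λ.indicator (fun j : ℕ => (1 + (j : ℝ)) ^ (-s))) :=
      summable_subtype_iff_indicator.1 hΛ
    have h2 : ∀ j, Λ.indicator (fun j : ℕ => ENNReal.ofReal ((1 + (j : ℝ)) ^ (-s))) j
        = ENNReal.ofReal (Λ.indicator (fun j : ℕ => (1 + (j : ℝ)) ^ (-s)) j) := by
      intro j
      by_cases hj : j ∈ Λ
      · simp [Set.indicator_of_mem hj]
      · simp [Set.indicator_of_notMem hj]
    simp_rw [h2]
    exact h1.tsum_ofReal_ne_top
  have hsum2 : ∑' j, w j * c j ^ 2 ≠ ∞ := by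
    have h1 : ∀ j, w j * c j ^ 2 ≤ ∫⁻ η in win j, ENNReal.ofReal ((1 + qen η) ^ s * ‖F η‖ ^ 2) := by
      intro j
      simp only [hc, hw]
      rw [eLpNorm_two_sq, ← lintegral_const_mul' _ _ (by simp),
        ← lintegral_indicator (measurableSet_win j)]
      apply lintegral_mono
      intro η
      by_cases hmem : η ∈ win j
      · simp only [Set.indicator_of_mem hmem]
        rw [ENNReal.ofReal_mul (by have := qen_nonneg η; positivity)]
        gcongr
        · exact hmem.1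
        · rw [← ofReal_norm, ENNReal.ofReal_pow (norm_nonneg _)]
      · simp [Set.indicator_of_notMem hmem]
    have h2 : ∑' j, ∫⁻ η in win j, ENNReal.ofReal ((1 + qen η) ^ s * ‖F η‖ ^ 2)
        = ∫⁻ η, ENNReal.ofReal ((1 + qen η) ^ s * ‖F η‖ ^ 2) := by
      rw [← lintegral_iUnion measurableSet_win pairwise_disjoint_win, iUnion_win,
        Measure.restrict_univ]
    have h3 : ∫⁻ η, ENNReal.ofReal ((1 + qen η) ^ s * ‖F η‖ ^ 2) ≠ ∞ :=
      hΨ.lintegral_lt_top.ne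
    exact ne_top_of_le_ne_top (h2 ▸ h3) (ENNReal.tsum_le_tsum h1)
  refine ne_top_of_le_ne_top ?_ (ENNReal.tsum_le_tsum hbound)
  rw [ENNReal.tsum_add]
  exact ENNReal.add_ne_top.2 ⟨hsum1, hsum2⟩

end Vale.Agent.Lib.P076
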